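import Mathlib

/-!
# Bounded-displacement permutations of the integers: periodisation

Basic tools: letters and words, representatives modulo `N` in a fundamental domain `[t, t + N)`,
and the periodisation of a map `ℤ → ℤ` read off on that fundamental domain.
-/

namespace Vale.Agent.Lib.Wobble

open Function

lemma perm_apply_inv {α : Type*} (s : Equiv.Perm α) (m : α) : s (s⁻¹ m) = m := by simp

lemma perm_inv_apply {α : Type*} (s : Equiv.Perm α) (m : α) : s⁻¹ (s m) = m := by simp

/-- the group element attached to a letter -/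
def act {ι : Type*} {H : Type*} [Group H] (σ : ι → H) (p : ι × Bool) : H :=
  cond p.2 (σ p.1) (σ p.1)⁻¹

/-- the inverse letter -/
def flip {ι : Type*} (p : ι × Bool) : ι × Bool := (p.1, !p.2)

lemma act_flip {ι : Type*} {H : Type*} [Group H] (σ : ι → H) (p : ι × Bool) :
    act σ (flip p) = (act σ p)⁻¹ := by
  obtain ⟨i, b⟩ := p
  cases b <;> simp [act, flip]

lemma lift_mk_eq {ι : Type*} {H : Type*} [Group H] (σ : ι → H) (L : List (ι × Bool)) :
    FreeGroup.lift σ (FreeGroup.mk L) = (L.map (act σ)).prod := by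
  rw [FreeGroup.lift_mk]
  rfl

lemma act_disp {ι : Type*} {σ : ι → Equiv.Perm ℤ} {C : ℤ} (hC : ∀ i m, |σ i m - m| ≤ C)
    (p : ι × Bool) (m : ℤ) : |act σ p m - m| ≤ C := by
  obtain ⟨i, b⟩ := p
  cases b
  · have := hC i ((σ i)⁻¹ m)
    rw [perm_apply_inv, abs_sub_comm] at this
    exact this
  · exact hC i m

lemma word_disp {ι : Type*} {σ : ι → Equiv.Perm ℤ} {C : ℤ} (hC : ∀ i m, |σ i m - m| ≤ C)
    (L : List (ι × Bool)) (m : ℤ) : |(L.map (act σ)).prod m - m| ≤ C * L.length := by
  induction L with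
  | nil => simp
  | cons p L ih =>
    simp only [List.map_cons, List.prod_cons, Equiv.Perm.mul_apply, List.length_cons]
    have h1 := act_disp hC p ((L.map (act σ)).prod m)
    have h2 := abs_sub_le (act σ p ((L.map (act σ)).prod m)) ((L.map (act σ)).prod m) m
    push_cast
    linarith

/-- the representative of a residue class in `[t, t + N)` -/
def rep {N : ℕ} (t : ℤ) (x : ZMod N) : ℤ := t + ((x - (t : ZMod N)).val : ℤ)

lemma rep_cast {N : ℕ} [NeZero N] (t : ℤ) (x : ZMod N) : ((rep t x : ℤ) : ZMod N) = x := by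
  unfold rep
  push_cast
  rw [ZMod.natCast_zmod_val]
  ring

lemma rep_mem {N : ℕ} [NeZero N] (t : ℤ) (x : ZMod N) : t ≤ rep t x ∧ rep t x < t + N := by
  unfold rep
  have := ZMod.val_lt (x - (t : ZMod N))
  constructor
  · have : (0 : ℤ) ≤ ((x - (t : ZMod N)).val : ℤ) := Int.natCast_nonneg _
    linarith
  · have : ((x - (t : ZMod N)).val : ℤ) < N := by exact_mod_cast this
    linarith

lemma rep_eq {N : ℕ} [NeZero N] (t : ℤ) (x : ZMod N) (r : ℤ) (h1 : t ≤ r) (h2 : r < t + N)
    (hx : ((r : ℤ) : ZMod N) = x) : rep t x = r := by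
  have hmem := rep_mem t x
  have hcast : ((rep t x : ℤ) : ZMod N) = (r : ZMod N) := by rw [rep_cast, hx]
  obtain ⟨k, hk⟩ := (ZMod.intCast_eq_intCast_iff_dvd_sub (rep t x) r N).mp hcast
  have hN : (0 : ℤ) < N := by
    have := NeZero.pos N
    exact_mod_cast this
  have hk1 : k < 1 := by nlinarith [hmem.1, hmem.2]
  have hk2 : -1 < k := by nlinarith [hmem.1, hmem.2]
  have hk3 : k = 0 := by omega
  rw [hk3] at hk
  linarith

lemma exists_rep {N : ℕ} [NeZero N] (t m : ℤ) :
    ∃ k : ℤ, m = rep t (m : ZMod N) + k * N := by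
  have hcast : ((rep t (m : ZMod N) : ℤ) : ZMod N) = (m : ZMod N) := rep_cast t _
  obtain ⟨k, hk⟩ := (ZMod.intCast_eq_intCast_iff_dvd_sub (rep t (m : ZMod N)) m N).mp hcast
  exact ⟨k, by linarith⟩

lemma cast_add_mul {N : ℕ} (m k : ℤ) : ((m + k * N : ℤ) : ZMod N) = (m : ZMod N) := by
  push_cast
  simp

/-- the `N`-periodic map that agrees with `f` on the fundamental domain `[t, t + N)` -/
def per (t : ℤ) (N : ℕ) (f : ℤ → ℤ) (m : ℤ) : ℤ :=
  f (rep t (m : ZMod N)) + (m - rep t (m : ZMod N))

section per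

variable {t : ℤ} {N : ℕ} [NeZero N]

lemma per_add (f : ℤ → ℤ) (m k : ℤ) : per t N f (m + k * N) = per t N f m + k * N := by
  unfold per
  rw [cast_add_mul]
  ring

lemma per_of_mem (f : ℤ → ℤ) (r : ℤ) (h1 : t ≤ r) (h2 : r < t + N) : per t N f r = f r := by
  unfold per
  rw [rep_eq t _ r h1 h2 rfl]
  ring

/-- if the displacement patterns of `f` around `t` and `t + N` agree up to distance `R < N`, the
periodisation agrees with `f` on `[t - R, t + N + R]` -/
lemma per_eq {R : ℤ} (f : ℤ → ℤ) (hRN : R < N)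
    (hwin : ∀ j : ℤ, |j| ≤ R → f (t + N + j) = f (t + j) + N)
    (m : ℤ) (h1 : t - R ≤ m) (h2 : m ≤ t + N + R) : per t N f m = f m := by
  rcases lt_or_ge m t with hlt | hge
  · have e : m = (m + N) + (-1) * N := by ring
    have hj : |m - t| ≤ R := by
      rw [abs_le]
      constructor <;> linarith
    have hw := hwin (m - t) hj
    have e1 : t + N + (m - t) = m + N := by ring
    have e2 : t + (m - t) = m := by ring
    rw [e1, e2] at hw
    conv_lhs => rw [e, per_add, per_of_mem f (m + N) (by linarith) (by linarith), hw]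
    ring
  · rcases lt_or_ge m (t + N) with hlt2 | hge2
    · exact per_of_mem f m hge hlt2
    · have e : m = (m - N) + 1 * N := by ring
      have hj : |m - N - t| ≤ R := by
        rw [abs_le]
        constructor <;> linarith
      have hw := hwin (m - N - t) hj
      have e1 : t + N + (m - N - t) = m := by ring
      have e2 : t + (m - N - t) = m - N := by ring
      rw [e1, e2] at hw
      conv_lhs => rw [e, per_add, per_of_mem f (m - N) (by linarith) (by linarith)]
      rw [hw]
      ring

lemma per_cancel {R : ℤ} (f f' : ℤ → ℤ) (hRN : R < N)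
    (hwin' : ∀ j : ℤ, |j| ≤ R → f' (t + N + j) = f' (t + j) + N)
    (hb : ∀ r, t ≤ r → r < t + N → |f r - r| ≤ R)
    (hinv : ∀ r, t ≤ r → r < t + N → f' (f r) = r) (m : ℤ) :
    per t N f' (per t N f m) = m := by
  obtain ⟨k, hk⟩ := exists_rep (N := N) t m
  have hmem := rep_mem t (m : ZMod N)
  set r := rep t (m : ZMod N) with hr
  have hd := abs_le.mp (hb r hmem.1 hmem.2)
  rw [hk, per_add, per_of_mem f r hmem.1 hmem.2, per_add,
    per_eq f' hRN hwin' (f r) (by linarith [hd.1]) (by linarith [hd.2]), hinv r hmem.1 hmem.2]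

end per

end Vale.Agent.Lib.Wobble
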