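import Vale.Agent.Lib.Wobble.Flux

/-!
# Turning a simple path in an orbit into a cyclic permutation
-/

namespace Vale.Agent.Lib.Wobble

open Function

lemma cycle_of_path {α : Type*} [DecidableEq α] (Γ : SimpleGraph α) {x y : α} (p : Γ.Walk x y)
    (hp : p.IsPath) :
    ∃ s : Equiv.Perm α, (∀ m, m ∉ p.support → s m = m) ∧ s y = x ∧
      (∀ m, m ≠ y → s m = m ∨ Γ.Adj m (s m)) ∧ (∀ m, m ≠ x → s⁻¹ m = m ∨ Γ.Adj m (s⁻¹ m)) := by
  induction p with
  | nil => exact ⟨1, fun _ _ => rfl, rfl, fun _ _ => Or.inl rfl, fun _ _ => Or.inl rfl⟩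
  | @cons x x' y h p ih =>
    rw [SimpleGraph.Walk.cons_isPath_iff] at hp
    obtain ⟨s', h1, h2, h3, h4⟩ := ih hp.1
    have hx : s' x = x := h1 x hp.2
    have hx' : s'⁻¹ x = x := by
      rw [Equiv.Perm.inv_eq_iff_eq]
      exact hx.symm
    refine ⟨Equiv.swap x x' * s', ?_, ?_, ?_, ?_⟩
    · intro m hm
      rw [SimpleGraph.Walk.support_cons, List.mem_cons, not_or] at hm
      have hmx' : m ≠ x' := fun hh => hm.2 (hh ▸ p.start_mem_support)
      rw [Equiv.Perm.mul_apply, h1 m hm.2, Equiv.swap_apply_of_ne_of_ne hm.1 hmx']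
    · rw [Equiv.Perm.mul_apply, h2, Equiv.swap_apply_right]
    · intro m hm
      by_cases hmx : m = x
      · right
        rw [hmx, Equiv.Perm.mul_apply, hx, Equiv.swap_apply_left]
        exact h
      · have e1 : s' m ≠ x' := fun hh => hm (s'.injective (hh.trans h2.symm))
        have e2 : s' m ≠ x := fun hh => hmx (s'.injective (hh.trans hx.symm))
        rw [Equiv.Perm.mul_apply, Equiv.swap_apply_of_ne_of_ne e2 e1]
        exact h3 m hm
    · intro m hm
      have hinv : (Equiv.swap x x' * s')⁻¹ = s'⁻¹ * Equiv.swap x x' := by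
        rw [mul_inv_rev, Equiv.swap_inv]
      rw [hinv, Equiv.Perm.mul_apply]
      by_cases hmx' : m = x'
      · right
        rw [hmx', Equiv.swap_apply_right, hx']
        exact h.symm
      · rw [Equiv.swap_apply_of_ne_of_ne hm hmx']
        exact h4 m hmx'

/-- If `y` lies in the orbit of `x`, there is a finitely supported permutation `s` with `s y = x`
that otherwise moves every point, forwards and backwards, by a letter (or not at all). -/
theorem exists_cycle {ι α : Type*} (σ : ι → Equiv.Perm α) (x : α) (L : List (ι × Bool)) :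
    ∃ (s : Equiv.Perm α) (J : Finset α), {m | s m ≠ m} ⊆ (J : Set α) ∧
      s ((L.map (act σ)).prod x) = x ∧
      (∀ m, m ≠ (L.map (act σ)).prod x → s m = m ∨ ∃ p, act σ p m = s m) ∧
      (∀ m, m ≠ x → s⁻¹ m = m ∨ ∃ p, act σ p m = s⁻¹ m) := by
  classical
  let Γ : SimpleGraph α := SimpleGraph.fromRel (fun m m' => ∃ p, act σ p m = m')
  have hadj : ∀ a b, Γ.Adj a b → ∃ p, act σ p a = b := by
    intro a b hab
    rw [SimpleGraph.fromRel_adj] at hab
    rcases hab.2 with ⟨p, hp⟩ | ⟨p, hp⟩
    · exact ⟨p, hp⟩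
    · refine ⟨flip p, ?_⟩
      rw [act_flip, Equiv.Perm.inv_eq_iff_eq]
      exact hp.symm
  have hreach : ∀ L : List (ι × Bool), Γ.Reachable x ((L.map (act σ)).prod x) := by
    intro L
    induction L with
    | nil => simp
    | cons p L ih =>
      simp only [List.map_cons, List.prod_cons, Equiv.Perm.mul_apply]
      by_cases he : act σ p ((L.map (act σ)).prod x) = (L.map (act σ)).prod x
      · rw [he]
        exact ih
      · refine ih.trans (SimpleGraph.Adj.reachable ?_)
        rw [SimpleGraph.fromRel_adj]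
        exact ⟨fun hh => he hh.symm, Or.inl ⟨p, rfl⟩⟩
  refine (hreach L).elim_path (fun P => ?_)
  obtain ⟨s, h1, h2, h3, h4⟩ := cycle_of_path Γ P.1 P.2
  refine ⟨s, P.1.support.toFinset, ?_, h2, ?_, ?_⟩
  · intro m hm
    by_contra hcon
    apply hm
    apply h1
    intro hh
    apply hcon
    simpa using hh
  · intro m hm
    rcases h3 m hm with h | h
    · exact Or.inl h
    · exact Or.inr (hadj _ _ h)
  · intro m hm
    rcases h4 m hm with h | h
    · exact Or.inl h
    · exact Or.inr (hadj _ _ h)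

end Vale.Agent.Lib.Wobble
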