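import Vale.Agent.Lib.Wobble.Cycle

namespace Vale.Agent.Lib.Wobble

open Function

lemma sum_rep {t : ℤ} {N : ℕ} [NeZero N] (F : ℤ → ℤ) :
    ∑ x : ZMod N, F (rep t x) = ∑ r ∈ Finset.Ico t (t + N), F r := by
  apply Finset.sum_bij (fun (x : ZMod N) _ => rep t x)
  · intro x _
    rw [Finset.mem_Ico]
    exact rep_mem t x
  · intro x _ y _ h
    have := congrArg (fun r : ℤ => (r : ZMod N)) h
    simpa [rep_cast] using this
  · intro r hr
    rw [Finset.mem_Ico] at hr
    exact ⟨(r : ZMod N), Finset.mem_univ _, rep_eq t _ r hr.1 hr.2 rfl⟩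
  · intro x _
    rfl

lemma map_act {ι G H : Type*} [Group G] [Group H] (π : G →* H) (γ : ι → G) (p : ι × Bool) :
    π (act γ p) = act (fun i => π (γ i)) p := by
  obtain ⟨i, b⟩ := p
  cases b <;> simp [act]

lemma not_isOfFinOrder_of_winding {G : Type*} [Group G] {N : ℕ} (hN : 0 < N)
    (π : G →* Equiv.Perm ℤ) (hper : ∀ g, IsPer N (π g)) (g : G) (x c : ℤ) (hc : c ≠ 0)
    (h : π g x = x + c * N) : ¬ IsOfFinOrder g := by
  have hpow : ∀ j : ℕ, π (g ^ j) x = x + (j * c) * N := by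
    intro j
    induction j with
    | zero => simp
    | succ j ih =>
      rw [pow_succ', map_mul, Equiv.Perm.mul_apply, ih, hper g, h]
      push_cast
      ring
  intro hfin
  obtain ⟨j, hj, hg⟩ := isOfFinOrder_iff_pow_eq_one.mp hfin
  have := hpow j
  rw [hg, map_one, Equiv.Perm.one_apply] at this
  have hN' : (N : ℤ) ≠ 0 := by exact_mod_cast hN.ne'
  have hj' : (j : ℤ) ≠ 0 := by exact_mod_cast hj.ne'
  have h0 : (j * c) * (N : ℤ) = 0 := by linarith
  rcases mul_eq_zero.mp h0 with h1 | h1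
  · rcases mul_eq_zero.mp h1 with h2 | h2
    · exact hj' h2
    · exact hc h2
  · exact hN' h1

/-- If the patterns of the generators and of a long cycle `s` inside one orbit agree around `t` and
`t + N`, the unrolled action contains an element translating some point by a nonzero multiple of
`N`. -/
theorem winding_of_windows {G : Type*} [Group G] {n : ℕ} (f : FreeGroup (Fin n) →* G)
    (hf : Surjective f)
    (Rel : Set (FreeGroup (Fin n))) (hRel : Subgroup.normalClosure Rel = f.ker)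
    (ρ : G →* Equiv.Perm ℤ) {C R : ℤ} (hC0 : 0 ≤ C)
    (hC : ∀ i m, |ρ (f (FreeGroup.of i)) m - m| ≤ C) (hCR : C ≤ R)
    (hRelR : ∀ r ∈ Rel, C * (FreeGroup.toWord r).length ≤ R)
    (t : ℤ) (N : ℕ) (hRN : R < N)
    (hwin : ∀ p : Fin n × Bool, ∀ j : ℤ, |j| ≤ R →
      act (fun i => ρ (f (FreeGroup.of i))) p (t + N + j) =
        act (fun i => ρ (f (FreeGroup.of i))) p (t + j) + N)
    (s : Equiv.Perm ℤ) (J : Finset ℤ) (hJ : {m | s m ≠ m} ⊆ (J : Set ℤ)) (x y : ℤ)
    (hsy : s y = x)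
    (hs : ∀ m, m ≠ y → s m = m ∨ ∃ p, act (fun i => ρ (f (FreeGroup.of i))) p m = s m)
    (hs' : ∀ m, m ≠ x → s⁻¹ m = m ∨ ∃ p, act (fun i => ρ (f (FreeGroup.of i))) p m = s⁻¹ m)
    (hx : x < t - R) (hy : t + N + R < y)
    (hwins : ∀ j : ℤ, |j| ≤ R → s (t + N + j) = s (t + j) + N)
    (hwins' : ∀ j : ℤ, |j| ≤ R → s⁻¹ (t + N + j) = s⁻¹ (t + j) + N) :
    ∃ π : G →* Equiv.Perm ℤ, (∀ g, IsPer N (π g)) ∧
      ∃ (g : G) (x₀ c : ℤ), c ≠ 0 ∧ π g x₀ = x₀ + c * N := by
  have hNpos : 0 < N := by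
    have : (0 : ℤ) < N := by linarith
    exact_mod_cast this
  have : NeZero N := ⟨hNpos.ne'⟩
  obtain ⟨π, hper, hπ⟩ := periodize f hf Rel hRel ρ hC0 hC hCR hRelR t N hRN hwin
  set σ : Fin n → Equiv.Perm ℤ := fun i => ρ (f (FreeGroup.of i)) with hσ
  have hbs : ∀ m, m ≠ y → |s m - m| ≤ C := by
    intro m hm
    rcases hs m hm with h | ⟨p, h⟩
    · rw [h]; simpa using hC0
    · rw [← h]; exact act_disp hC p m
  have hbs' : ∀ m, m ≠ x → |s⁻¹ m - m| ≤ C := by
    intro m hm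
    rcases hs' m hm with h | ⟨p, h⟩
    · rw [h]; simpa using hC0
    · rw [← h]; exact act_disp hC p m
  let S : Equiv.Perm ℤ :=
    { toFun := per t N (⇑s)
      invFun := per t N (⇑s⁻¹)
      left_inv := per_cancel _ _ hRN hwins'
        (fun r _ h2 => le_trans (hbs r (by linarith)) hCR) (fun r _ _ => perm_inv_apply s r)
      right_inv := per_cancel _ _ hRN hwins
        (fun r h1 _ => le_trans (hbs' r (by linarith)) hCR) (fun r _ _ => perm_apply_inv s r) }
  have hS : ∀ m, S m = per t N (⇑s) m := fun _ => rfl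
  have hSper : IsPer N S := fun m k => per_add _ m k
  have hD : totalDisp t N S = N := by
    unfold totalDisp
    have e : ∀ z : ZMod N, S (rep t z) - rep t z = s (rep t z) - rep t z := by
      intro z
      have hm := rep_mem t z
      rw [hS, per_of_mem _ _ hm.1 hm.2]
    rw [Finset.sum_congr rfl (fun z _ => e z), sum_rep (fun r => s r - r)]
    exact flux s J hJ y C t N (by linarith) (by linarith) (by rw [hsy]; linarith) hbs
      (fun j hj => hwins j (le_trans hj hCR))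
  obtain ⟨x₀, j, c, hc, hw⟩ := exists_winding hSper (t := t)
    (by rw [hD]; exact_mod_cast hNpos.ne')
  have hstep : ∀ m, ∃ g, π g m = S m := by
    intro m
    have hm := rep_mem t (m : ZMod N)
    rcases hs (rep t (m : ZMod N)) (by linarith) with h | ⟨p, h⟩
    · refine ⟨1, ?_⟩
      rw [map_one, Equiv.Perm.one_apply, hS]
      unfold per
      rw [h]
      ring
    · refine ⟨act (fun i => f (FreeGroup.of i)) p, ?_⟩
      rw [map_act, hπ, hS]
      unfold per
      rw [h]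
  have hpow : ∀ j : ℕ, ∃ g, π g x₀ = (S ^ j) x₀ := by
    intro j
    induction j with
    | zero => exact ⟨1, by simp⟩
    | succ j ih =>
      obtain ⟨g, hg⟩ := ih
      obtain ⟨g', hg'⟩ := hstep ((S ^ j) x₀)
      refine ⟨g' * g, ?_⟩
      rw [map_mul, Equiv.Perm.mul_apply, hg, hg', pow_succ', Equiv.Perm.mul_apply]
  obtain ⟨g, hg⟩ := hpow j
  exact ⟨π, hper, g, x₀, c, hc, by rw [hg, hw]⟩

/-- **Dichotomy.** For a finite presentation and a displacement bound `C` there is a constant `K`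
such that every action on `ℤ` whose generators have displacement at most `C` either has all
displacements at most `K`, or can be unrolled to a periodic action in which some element translates
some point by a nonzero multiple of the period. -/
theorem dichotomy {G : Type*} [Group G] {n : ℕ} (f : FreeGroup (Fin n) →* G)
    (hf : Surjective f) (Rel : Set (FreeGroup (Fin n))) (hfin : Rel.Finite)
    (hRel : Subgroup.normalClosure Rel = f.ker) {C : ℤ} (hC0 : 0 ≤ C) :
    ∃ K : ℤ, ∀ ρ : G →* Equiv.Perm ℤ, (∀ i m, |ρ (f (FreeGroup.of i)) m - m| ≤ C) →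
      (∀ g x, ρ g x - x ≤ K) ∨
      ∃ (N : ℕ) (π : G →* Equiv.Perm ℤ), 0 < N ∧ (∀ g, IsPer N (π g)) ∧
        ∃ (g : G) (x₀ c : ℤ), c ≠ 0 ∧ π g x₀ = x₀ + c * N := by
  classical
  obtain ⟨b, hb⟩ := (hfin.image (fun r => (FreeGroup.toWord r).length)).bddAbove
  obtain ⟨Lmax, hL1, hL3⟩ : ∃ Lmax : ℕ, (∀ r ∈ Rel, (FreeGroup.toWord r).length ≤ Lmax) ∧
      1 ≤ Lmax := by
    refine ⟨max b 1, fun r hr => ?_, le_max_right _ _⟩
    exact le_trans (hb ⟨r, hr, rfl⟩) (le_max_left _ _)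
  obtain ⟨R, hR⟩ : ∃ R : ℕ, (R : ℤ) = C * Lmax := ⟨C.toNat * Lmax, by
    push_cast
    rw [Int.toNat_of_nonneg hC0]⟩
  have hCR : C ≤ (R : ℤ) := by
    rw [hR]
    have : (1 : ℤ) ≤ Lmax := by exact_mod_cast hL3
    nlinarith
  have hRelR : ∀ r ∈ Rel, C * (FreeGroup.toWord r).length ≤ (R : ℤ) := by
    intro r hr
    rw [hR]
    have : ((FreeGroup.toWord r).length : ℤ) ≤ Lmax := by exact_mod_cast hL1 r hr
    nlinarith
  have hRnn : (0 : ℤ) ≤ R := Int.natCast_nonneg R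
  have hCC : -C ≤ C := by linarith
  let Pat : Type := (Option (Fin n) × Bool) → Set.Icc (-(R : ℤ)) R → Set.Icc (-C) C
  let _ : Fintype Pat := Fintype.ofFinite Pat
  set P0 : ℕ := Fintype.card Pat with hP0
  refine ⟨((P0 : ℤ) + 3) * ((R : ℤ) + 1), fun ρ hC => ?_⟩
  by_cases hbd : ∀ g x, ρ g x - x ≤ ((P0 : ℤ) + 3) * ((R : ℤ) + 1)
  · exact Or.inl hbd
  right
  push Not at hbd
  obtain ⟨g, x, hgx⟩ := hbd
  obtain ⟨w, rfl⟩ := hf g
  set σ : Fin n → Equiv.Perm ℤ := fun i => ρ (f (FreeGroup.of i)) with hσ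
  have hlift : ∀ w, FreeGroup.lift σ w = ρ (f w) := by
    intro w
    have : FreeGroup.lift σ = ρ.comp f := by
      ext i
      simp [hσ]
    rw [this]
    rfl
  obtain ⟨s, J, hJ, hsy, hs, hs'⟩ := exists_cycle σ x (FreeGroup.toWord w)
  rw [← lift_mk_eq, FreeGroup.mk_toWord, hlift] at hsy hs
  set y : ℤ := ρ (f w) x with hy
  have hbs : ∀ m, m ≠ y → |s m - m| ≤ C := by
    intro m hm
    rcases hs m hm with h | ⟨p, h⟩
    · rw [h]; simpa using hC0
    · rw [← h]; exact act_disp hC p m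
  have hbs' : ∀ m, m ≠ x → |s⁻¹ m - m| ≤ C := by
    intro m hm
    rcases hs' m hm with h | ⟨p, h⟩
    · rw [h]; simpa using hC0
    · rw [← h]; exact act_disp hC p m
  let σ' : Option (Fin n) → Equiv.Perm ℤ := fun o => o.elim s σ
  have hloc : ∀ (p : Option (Fin n) × Bool) (m : ℤ), x < m → m < y → |act σ' p m - m| ≤ C := by
    rintro ⟨o, b⟩ m h1 h2
    cases o with
    | none =>
      cases b
      · exact hbs' m (by linarith)
      · exact hbs m (by linarith)
    | some i => exact act_disp hC (i, b) m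
  let tpos : ℕ → ℤ := fun j => x + ((R : ℤ) + 1) * ((j : ℤ) + 1)
  let Wd : Fin (P0 + 1) → Pat := fun j p i =>
    Set.projIcc (-C) C hCC (act σ' p (tpos j + i) - (tpos j + i))
  obtain ⟨j₁, j₂, hne, hW⟩ := Fintype.exists_ne_map_eq_of_card_lt Wd (by simp [hP0])
  have main : ∀ a b : Fin (P0 + 1), (a : ℕ) < (b : ℕ) → Wd a = Wd b →
      ∃ (N : ℕ) (π : G →* Equiv.Perm ℤ), 0 < N ∧ (∀ g, IsPer N (π g)) ∧
        ∃ (g : G) (x₀ c : ℤ), c ≠ 0 ∧ π g x₀ = x₀ + c * N := by
    intro a b hab hW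
    have hbP : ((b : ℕ) : ℤ) ≤ P0 := by exact_mod_cast Nat.lt_succ_iff.mp b.2
    have hab' : ((a : ℕ) : ℤ) + 1 ≤ ((b : ℕ) : ℤ) := by exact_mod_cast hab
    have ha0 : (0 : ℤ) ≤ ((a : ℕ) : ℤ) := Int.natCast_nonneg _
    have hN : ((((R + 1) * ((b : ℕ) - (a : ℕ)) : ℕ)) : ℤ) = tpos b - tpos a := by
      rw [Nat.cast_mul, Nat.cast_sub hab.le]
      push_cast
      ring
    have hrange : ∀ (c : Fin (P0 + 1)) (i : ℤ), |i| ≤ R → x < tpos c + i ∧ tpos c + i < y := by
      intro c i hi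
      have hi' := abs_le.mp hi
      have hc0 : (0 : ℤ) ≤ ((c : ℕ) : ℤ) := Int.natCast_nonneg _
      have hcP : ((c : ℕ) : ℤ) ≤ P0 := by exact_mod_cast Nat.lt_succ_iff.mp c.2
      constructor
      · show x < x + ((R : ℤ) + 1) * (((c : ℕ) : ℤ) + 1) + i
        nlinarith
      · show x + ((R : ℤ) + 1) * (((c : ℕ) : ℤ) + 1) + i < y
        nlinarith
    have hwin' : ∀ (p : Option (Fin n) × Bool) (i : ℤ), |i| ≤ R →
        act σ' p (tpos a + (((R + 1) * ((b : ℕ) - (a : ℕ)) : ℕ) : ℤ) + i) =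
          act σ' p (tpos a + i) + (((R + 1) * ((b : ℕ) - (a : ℕ)) : ℕ) : ℤ) := by
      intro p i hi
      rw [hN]
      have e : tpos a + (tpos b - tpos a) + i = tpos b + i := by ring
      rw [e]
      have h1 := congrFun (congrFun hW p) ⟨i, abs_le.mp hi⟩
      have ma := hrange a i hi
      have mb := hrange b i hi
      have h2 : Set.projIcc (-C) C hCC (act σ' p (tpos a + i) - (tpos a + i)) =
          Set.projIcc (-C) C hCC (act σ' p (tpos b + i) - (tpos b + i)) := h1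
      rw [Set.projIcc_of_mem hCC (abs_le.mp (hloc p _ ma.1 ma.2)),
        Set.projIcc_of_mem hCC (abs_le.mp (hloc p _ mb.1 mb.2))] at h2
      have h3 := congrArg Subtype.val h2
      simp only at h3
      linarith
    have hRN : (R : ℤ) < (((R + 1) * ((b : ℕ) - (a : ℕ)) : ℕ) : ℤ) := by
      rw [hN]
      show (R : ℤ) < x + ((R : ℤ) + 1) * (((b : ℕ) : ℤ) + 1) -
        (x + ((R : ℤ) + 1) * (((a : ℕ) : ℤ) + 1))
      nlinarith
    have r0 := hrange a (-(R : ℤ)) (by rw [abs_neg, abs_of_nonneg hRnn])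
    have r1 := hrange b (R : ℤ) (by rw [abs_of_nonneg hRnn])
    obtain ⟨π, h1, h2⟩ := winding_of_windows f hf Rel hRel ρ hC0 hC hCR hRelR (tpos a)
      ((R + 1) * ((b : ℕ) - (a : ℕ))) hRN (fun p i hi => hwin' (some p.1, p.2) i hi)
      s J hJ x y hsy hs hs' (by linarith [r0.1]) (by rw [hN]; linarith [r1.2])
      (fun i hi => hwin' (none, true) i hi) (fun i hi => hwin' (none, false) i hi)
    refine ⟨_, π, ?_, h1, h2⟩
    have : (0 : ℤ) < (((R + 1) * ((b : ℕ) - (a : ℕ)) : ℕ) : ℤ) := by linarith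
    exact_mod_cast this
  rcases lt_or_gt_of_ne (fun hh => hne (Fin.ext hh) : (j₁ : ℕ) ≠ (j₂ : ℕ)) with hlt | hgt
  · exact main j₁ j₂ hlt hW
  · exact main j₂ j₁ hgt hW.symm

end Vale.Agent.Lib.Wobble
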