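import Vale.Agent.Lib.Wobble.Winding

/-!
# The flux of a long cycle through a window
-/

namespace Vale.Agent.Lib.Wobble

open Function

/-- clamp an integer to the interval `[a, b]` -/
def clamp (a b m : ℤ) : ℤ := max a (min m b)

/-- signed overshoot of the edge `u → v` over the cut `c` -/
def kap (c u v : ℤ) : ℤ :=
  if u < c ∧ c ≤ v then -(v - c) else if c ≤ u ∧ v < c then v - c else 0

lemma eps_eq {t M C u v : ℤ} (hCM : C < M) (huv : |v - u| ≤ C) :
    (if t ≤ u ∧ u < t + M then v - u else 0) - clamp t (t + M) v + clamp t (t + M) u =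
      kap t u v - kap (t + M) u v := by
  have h := abs_le.mp huv
  unfold clamp kap
  split_ifs <;> omega

lemma kap_far {c C u v : ℤ} (huv : |v - u| ≤ C) (h : ¬ (c - C ≤ u ∧ u < c + C)) :
    kap c u v = 0 := by
  have h' := abs_le.mp huv
  unfold kap
  split_ifs <;> omega

lemma kap_shift (c M u v : ℤ) : kap (c + M) (u + M) (v + M) = kap c u v := by
  unfold kap
  split_ifs <;> omega

/-- Let `s` be a finitely supported permutation of `ℤ` all of whose displacements are at most `C`,
except for one long jump from a point `e` to the right of the segment `[t, t + N)` to a point to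
the left of it. If the displacement patterns of `s` around `t` and `t + N` agree, then the total
displacement of `s` over the segment is exactly `N`. -/
theorem flux (s : Equiv.Perm ℤ) (J : Finset ℤ) (hJ : {m | s m ≠ m} ⊆ (J : Set ℤ)) (e C t : ℤ)
    (N : ℕ) (hCN : C < N) (he : t + N + C ≤ e) (hse : s e ≤ t)
    (hb : ∀ m, m ≠ e → |s m - m| ≤ C)
    (hwin : ∀ j : ℤ, |j| ≤ C → s (t + N + j) = s (t + j) + N) :
    ∑ r ∈ Finset.Ico t (t + N), (s r - r) = N := by
  classical
  have hC0 : 0 ≤ C := le_trans (abs_nonneg _) (hb (e + 1) (by omega))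
  set J' : Finset ℤ := J ∪ Finset.Ico (t - C) (t + N + C) ∪ {e} with hJ'
  have hJsub : {m | s m ≠ m} ⊆ (J' : Set ℤ) := by
    intro m hm
    have := hJ hm
    simp only [hJ', Finset.coe_union, Set.mem_union]
    left; left; exact this
  have heJ : e ∈ J' := by simp [hJ']
  have hIcoJ : ∀ a b : ℤ, t - C ≤ a → b ≤ t + N + C → Finset.Ico a b ⊆ J'.erase e := by
    intro a b ha hb' m hm
    rw [Finset.mem_Ico] at hm
    rw [Finset.mem_erase]
    refine ⟨by omega, ?_⟩
    simp only [hJ', Finset.mem_union, Finset.mem_Ico]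
    left; right; omega
  have h1 : ∑ m ∈ J', clamp t (t + N) (s m) = ∑ m ∈ J', clamp t (t + N) m :=
    Equiv.Perm.sum_comp s J' (clamp t (t + N)) hJsub
  have h2 : ∑ r ∈ Finset.Ico t (t + N), (s r - r) =
      ∑ m ∈ J', (if t ≤ m ∧ m < t + N then s m - m else 0) := by
    have h2a : ∑ r ∈ Finset.Ico t (t + N), (s r - r) =
        ∑ m ∈ Finset.Ico t (t + N), (if t ≤ m ∧ m < t + N then s m - m else 0) := by
      apply Finset.sum_congr rfl
      intro m hm
      rw [Finset.mem_Ico] at hm
      rw [if_pos hm]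
    rw [h2a]
    apply Finset.sum_subset
    · exact (hIcoJ t (t + N) (by omega) (by omega)).trans (Finset.erase_subset _ _)
    · intro m _ hm
      rw [Finset.mem_Ico] at hm
      rw [if_neg hm]
  have h3 : ∑ r ∈ Finset.Ico t (t + N), (s r - r) =
      ∑ m ∈ J', ((if t ≤ m ∧ m < t + N then s m - m else 0) - clamp t (t + N) (s m) +
        clamp t (t + N) m) := by
    rw [h2, Finset.sum_add_distrib, Finset.sum_sub_distrib, h1]
    ring
  have hsum : ∀ c : ℤ, t ≤ c → c ≤ t + N →
      ∑ m ∈ J'.erase e, kap c m (s m) = ∑ m ∈ Finset.Ico (c - C) (c + C), kap c m (s m) := by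
    intro c hc1 hc2
    symm
    apply Finset.sum_subset (hIcoJ _ _ (by omega) (by omega))
    intro m hm hm2
    rw [Finset.mem_Ico] at hm2
    exact kap_far (hb m (Finset.ne_of_mem_erase hm)) hm2
  rw [h3, ← Finset.add_sum_erase J' _ heJ]
  have hE : (if t ≤ e ∧ e < t + N then s e - e else 0) - clamp t (t + N) (s e) +
      clamp t (t + N) e = N := by
    unfold clamp
    split_ifs <;> omega
  rw [hE]
  have h4 : ∑ m ∈ J'.erase e, ((if t ≤ m ∧ m < t + N then s m - m else 0) -
      clamp t (t + N) (s m) + clamp t (t + N) m) =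
      ∑ m ∈ J'.erase e, (kap t m (s m) - kap (t + N) m (s m)) := by
    apply Finset.sum_congr rfl
    intro m hm
    exact eps_eq hCN (hb m (Finset.ne_of_mem_erase hm))
  rw [h4, Finset.sum_sub_distrib, hsum t le_rfl (by omega), hsum (t + N) (by omega) le_rfl]
  have h5 : ∑ m ∈ Finset.Ico (t + N - C) (t + N + C), kap (t + N) m (s m) =
      ∑ m ∈ Finset.Ico (t - C) (t + C), kap t m (s m) := by
    have e1 : t + N - C = (t - C) + N := by ring
    have e2 : t + N + C = (t + C) + N := by ring
    rw [e1, e2, ← Finset.sum_Ico_add' (fun m => kap (t + N) m (s m)) (t - C) (t + C) (N : ℤ)]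
    apply Finset.sum_congr rfl
    intro m hm
    rw [Finset.mem_Ico] at hm
    have hw := hwin (m - t) (by rw [abs_le]; constructor <;> omega)
    have e3 : t + N + (m - t) = m + N := by ring
    have e4 : t + (m - t) = m := by ring
    rw [e3, e4] at hw
    rw [hw, kap_shift]
  rw [h5]
  ring

end Vale.Agent.Lib.Wobble
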