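import Vale.Agent.Lib.Wobble.Dichotomy

namespace Vale.Agent.Lib.Wobble

open Function

lemma finite_hom {G Q : Type*} [Group G] [Group Q] [Finite Q] {n : ℕ}
    (f : FreeGroup (Fin n) →* G) (hf : Surjective f) : Finite (G →* Q) := by
  apply Finite.of_injective (fun ψ : G →* Q => fun i : Fin n => ψ (f (FreeGroup.of i)))
  intro ψ ψ' h
  have h2 : ψ.comp f = ψ'.comp f := by
    ext i
    exact congrFun h i
  ext g
  obtain ⟨w, rfl⟩ := hf g
  exact DFunLike.congr_fun h2 w

/-- A finitely generated group acting with orbits of bounded size acts through a finite quotient. -/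
theorem finite_of_small_orbits {G X : Type*} [Group G] [MulAction G X] {n : ℕ}
    (f : FreeGroup (Fin n) →* G) (hf : Surjective f) (M : ℕ)
    (h : ∀ x : X, Nonempty (MulAction.orbit G x ↪ Fin M)) :
    ∃ K : Subgroup G, K.Normal ∧ K.FiniteIndex ∧ ∀ g ∈ K, ∀ x : X, g • x = x := by
  have : Finite (G →* Equiv.Perm (Fin M)) := finite_hom f hf
  let Φ : G →* ((G →* Equiv.Perm (Fin M)) → Equiv.Perm (Fin M)) := MonoidHom.pi (fun ψ => ψ)
  refine ⟨Φ.ker, inferInstance, inferInstance, ?_⟩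
  intro g hg x
  obtain ⟨e⟩ := h x
  let ψ : G →* Equiv.Perm (Fin M) :=
    (Equiv.Perm.viaEmbeddingHom e).comp (MulAction.toPermHom G (MulAction.orbit G x))
  have h1 : ψ g = 1 := congrFun (MonoidHom.mem_ker.mp hg) ψ
  let x0 : MulAction.orbit G x := ⟨x, MulAction.mem_orbit_self x⟩
  have h2 : ψ g (e x0) = e (g • x0) := Equiv.Perm.viaEmbedding_apply _ e x0
  rw [h1, Equiv.Perm.one_apply] at h2
  exact (congrArg Subtype.val (e.injective h2)).symm

lemma winding_pow {G : Type*} [Group G] {N : ℕ}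
    (π : G →* Equiv.Perm ℤ) (hper : ∀ g, IsPer N (π g)) (g : G) (x c : ℤ)
    (h : π g x = x + c * N) (j : ℕ) : π (g ^ j) x = x + (j * c) * N := by
  induction j with
  | zero => simp
  | succ j ih =>
    rw [pow_succ', map_mul, Equiv.Perm.mul_apply, ih, hper g, h]
    push_cast
    ring

/-- A group with a periodic action on `ℤ` in which some element translates a point by a nonzero
multiple of the period has a finite-index subgroup with a nontrivial homomorphism to `ℤ`. -/
theorem indicable_of_winding {G : Type*} [Group G] {N : ℕ} (hN : 0 < N)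
    (π : G →* Equiv.Perm ℤ) (hper : ∀ g, IsPer N (π g)) (g : G) (x₀ c : ℤ) (hc : c ≠ 0)
    (h : π g x₀ = x₀ + c * N) :
    ∃ K : Subgroup G, K.FiniteIndex ∧ ∃ χ : K →* Multiplicative ℤ, χ ≠ 1 := by
  have : NeZero N := ⟨hN.ne'⟩
  have hcast : ∀ (k : G) (m : ℤ),
      ((π k m : ℤ) : ZMod N) = ((π k (rep 0 (m : ZMod N)) : ℤ) : ZMod N) := by
    intro k m
    obtain ⟨q, hq⟩ := exists_rep (N := N) 0 m
    conv_lhs => rw [hq, hper k, cast_add_mul]
  let A : MulAction G (ZMod N) :=
    { smul := fun k z => ((π k (rep 0 z) : ℤ) : ZMod N)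
      one_smul := fun z => by
        show ((π 1 (rep 0 z) : ℤ) : ZMod N) = z
        rw [map_one, Equiv.Perm.one_apply, rep_cast]
      mul_smul := fun k k' z => by
        show ((π (k * k') (rep 0 z) : ℤ) : ZMod N) =
          ((π k (rep 0 ((π k' (rep 0 z) : ℤ) : ZMod N)) : ℤ) : ZMod N)
        rw [map_mul, Equiv.Perm.mul_apply, hcast k] }
  let θ : G →* Equiv.Perm (ZMod N) := MulAction.toPermHom G (ZMod N)
  have hθ : ∀ (k : G) (z : ZMod N), θ k z = ((π k (rep 0 z) : ℤ) : ZMod N) := fun _ _ => rfl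
  have hdvd : ∀ k ∈ θ.ker, ∃ q : ℤ, π k x₀ = x₀ + q * N := by
    intro k hk
    have h1 : θ k (x₀ : ZMod N) = (x₀ : ZMod N) := by
      rw [MonoidHom.mem_ker.mp hk, Equiv.Perm.one_apply]
    rw [hθ, ← hcast] at h1
    obtain ⟨q, hq⟩ := (ZMod.intCast_eq_intCast_iff_dvd_sub _ _ N).mp h1
    exact ⟨-q, by linarith⟩
  refine ⟨θ.ker, inferInstance, ?_⟩
  let χ : θ.ker →* Multiplicative ℤ :=
    MonoidHom.mk' (fun k => Multiplicative.ofAdd (π (k : G) x₀ - x₀)) (by
      intro k k'
      obtain ⟨q, hq⟩ := hdvd k' k'.2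
      rw [← ofAdd_add]
      congr 1
      rw [Subgroup.coe_mul, map_mul, Equiv.Perm.mul_apply, hq, hper]
      ring)
  refine ⟨χ, ?_⟩
  intro hχ
  have hj : 0 < orderOf (θ g) := orderOf_pos _
  have hmem : g ^ orderOf (θ g) ∈ θ.ker := by
    rw [MonoidHom.mem_ker, map_pow, pow_orderOf_eq_one]
  have h1 : χ ⟨_, hmem⟩ = 1 := by rw [hχ]; rfl
  have h2 : π (g ^ orderOf (θ g)) x₀ - x₀ = 0 := Multiplicative.ofAdd.injective h1
  rw [winding_pow π hper g x₀ c h] at h2
  have hN' : (N : ℤ) ≠ 0 := by exact_mod_cast hN.ne'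
  have hj' : ((orderOf (θ g) : ℕ) : ℤ) ≠ 0 := by exact_mod_cast hj.ne'
  have h0 : (((orderOf (θ g) : ℕ) : ℤ) * c) * (N : ℤ) = 0 := by linarith
  rcases mul_eq_zero.mp h0 with h3 | h3
  · rcases mul_eq_zero.mp h3 with h4 | h4
    · exact hj' h4
    · exact hc h4
  · exact hN' h3

/-- **Main theorem.** Let a finitely presented group act on a set whose orbits are laid out
injectively on `ℤ` in such a way that every group element has bounded displacement. Then either the
action factors through a finite quotient, or the group has an action on `ℤ` by `N`-periodic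
permutations in which some element translates some point by a nonzero multiple of `N`. -/
theorem main_action {G X : Type*} [Group G] [hfp : Group.IsFinitelyPresented G] [MulAction G X]
    (pos : X → ℤ) (hinj : ∀ x : X, Set.InjOn pos (MulAction.orbit G x))
    (hb : ∀ g : G, ∃ C : ℤ, ∀ x : X, |pos (g • x) - pos x| ≤ C) :
    (∃ K : Subgroup G, K.Normal ∧ K.FiniteIndex ∧ ∀ g ∈ K, ∀ x : X, g • x = x) ∨
    (∃ (N : ℕ) (π : G →* Equiv.Perm ℤ), 0 < N ∧ (∀ g, IsPer N (π g)) ∧
        ∃ (g : G) (x₀ c : ℤ), c ≠ 0 ∧ π g x₀ = x₀ + c * N) := by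
  obtain ⟨n, f, hf, Rel, hfin, hRel⟩ := hfp.out
  choose c hc using fun i : Fin n => hb (f (FreeGroup.of i))
  have hC0 : 0 ≤ ∑ i, |c i| := Finset.sum_nonneg (fun i _ => abs_nonneg _)
  have hcC : ∀ i, c i ≤ ∑ i, |c i| := fun i =>
    le_trans (le_abs_self _) (Finset.single_le_sum (f := fun i => |c i|)
      (fun i _ => abs_nonneg _) (Finset.mem_univ i))
  obtain ⟨K, hK⟩ := dichotomy f hf Rel hfin hRel hC0
  by_cases hw : ∃ (N : ℕ) (π : G →* Equiv.Perm ℤ), 0 < N ∧ (∀ g, IsPer N (π g)) ∧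
        ∃ (g : G) (x₀ c : ℤ), c ≠ 0 ∧ π g x₀ = x₀ + c * N
  · exact Or.inr hw
  left
  apply finite_of_small_orbits f hf (2 * K + 1).toNat
  intro x
  let ι : MulAction.orbit G x ↪ ℤ :=
    ⟨fun y => pos y, fun a b h => Subtype.ext (hinj x a.2 b.2 h)⟩
  let ρ : G →* Equiv.Perm ℤ :=
    (Equiv.Perm.viaEmbeddingHom ι).comp (MulAction.toPermHom G (MulAction.orbit G x))
  have hρ1 : ∀ (g : G) (y : MulAction.orbit G x), ρ g (ι y) = ι (g • y) :=
    fun g y => Equiv.Perm.viaEmbedding_apply _ ι y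
  have hρ2 : ∀ (g : G) (m : ℤ), m ∉ Set.range ι → ρ g m = m :=
    fun g m hm => Equiv.Perm.viaEmbedding_apply_of_notMem _ ι m hm
  have hC : ∀ i m, |ρ (f (FreeGroup.of i)) m - m| ≤ ∑ i, |c i| := by
    intro i m
    by_cases hm : m ∈ Set.range ι
    · obtain ⟨y, rfl⟩ := hm
      rw [hρ1]
      exact le_trans (hc i y) (hcC i)
    · rw [hρ2 _ m hm]
      simpa using hC0
  have hbd : ∀ g m, ρ g m - m ≤ K := by
    rcases hK ρ hC with h | h
    · exact h
    · exact absurd h hw
  let x0 : MulAction.orbit G x := ⟨x, MulAction.mem_orbit_self x⟩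
  have hup : ∀ y : MulAction.orbit G x, pos y - pos x ≤ K ∧ pos x - pos y ≤ K := by
    rintro ⟨y, g, rfl⟩
    constructor
    · have := hbd g (ι x0)
      rw [hρ1] at this
      exact this
    · have := hbd g⁻¹ (ι (g • x0))
      rw [hρ1, inv_smul_smul] at this
      exact this
  refine ⟨⟨fun y => ⟨(pos y - pos x + K).toNat, ?_⟩, ?_⟩⟩
  · have := hup y
    omega
  · intro a b hab
    have ha := hup a
    have hb' := hup b
    have h1 : (pos a - pos x + K).toNat = (pos b - pos x + K).toNat := congrArg Fin.val hab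
    have h2 : pos a = pos b := by omega
    exact Subtype.ext (hinj x a.2 b.2 h2)

end Vale.Agent.Lib.Wobble
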