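import Vale.Agent.Lib.Wobble.Basic

/-!
# Unrolling a finitely presented group action periodically
-/

namespace Vale.Agent.Lib.Wobble

open Function

/-- `φ` commutes with the translation by `N` -/
def IsPer (N : ℕ) (φ : Equiv.Perm ℤ) : Prop := ∀ m k : ℤ, φ (m + k * N) = φ m + k * N

lemma IsPer.one (N : ℕ) : IsPer N 1 := fun _ _ => rfl

lemma IsPer.mul {N : ℕ} {φ ψ : Equiv.Perm ℤ} (h1 : IsPer N φ) (h2 : IsPer N ψ) :
    IsPer N (φ * ψ) := by
  intro m k
  rw [Equiv.Perm.mul_apply, Equiv.Perm.mul_apply, h2, h1]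

lemma IsPer.inv {N : ℕ} {φ : Equiv.Perm ℤ} (h : IsPer N φ) : IsPer N φ⁻¹ := by
  intro m k
  apply φ.injective
  rw [perm_apply_inv, h, perm_apply_inv]

lemma IsPer.pow {N : ℕ} {φ : Equiv.Perm ℤ} (h : IsPer N φ) (j : ℕ) : IsPer N (φ ^ j) := by
  induction j with
  | zero => simpa using IsPer.one N
  | succ j ih =>
    rw [pow_succ]
    exact ih.mul h

/-- **Unrolling lemma.** If the displacement patterns of the generators around `t` and `t + N` agree
up to distance `R < N` (with `R` at least `C` times the length of every relator), then repeating the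
segment `[t, t + N)` periodically defines a new action of the group on `ℤ`, by `N`-periodic
permutations. -/
theorem periodize {G : Type*} [Group G] {n : ℕ} (f : FreeGroup (Fin n) →* G) (hf : Surjective f)
    (Rel : Set (FreeGroup (Fin n))) (hRel : Subgroup.normalClosure Rel = f.ker)
    (ρ : G →* Equiv.Perm ℤ) {C R : ℤ} (hC0 : 0 ≤ C)
    (hC : ∀ i m, |ρ (f (FreeGroup.of i)) m - m| ≤ C) (hCR : C ≤ R)
    (hRelR : ∀ r ∈ Rel, C * (FreeGroup.toWord r).length ≤ R)
    (t : ℤ) (N : ℕ) (hRN : R < N)
    (hwin : ∀ p : Fin n × Bool, ∀ j : ℤ, |j| ≤ R →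
      act (fun i => ρ (f (FreeGroup.of i))) p (t + N + j) =
        act (fun i => ρ (f (FreeGroup.of i))) p (t + j) + N) :
    ∃ π : G →* Equiv.Perm ℤ, (∀ g, IsPer N (π g)) ∧
      ∀ (p : Fin n × Bool) (m : ℤ), act (fun i => π (f (FreeGroup.of i))) p m =
        per t N (⇑(act (fun i => ρ (f (FreeGroup.of i))) p)) m := by
  have hNpos : 0 < N := by
    have : (0 : ℤ) < N := by linarith
    exact_mod_cast this
  have : NeZero N := ⟨hNpos.ne'⟩
  set σ : Fin n → Equiv.Perm ℤ := fun i => ρ (f (FreeGroup.of i)) with hσ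
  have hlift : ∀ w, FreeGroup.lift σ w = ρ (f w) := by
    intro w
    have : FreeGroup.lift σ = ρ.comp f := by
      ext i
      simp [hσ]
    rw [this]
    rfl
  have hb : ∀ (p : Fin n × Bool) (r : ℤ), t ≤ r → r < t + N → |act σ p r - r| ≤ R :=
    fun p r _ _ => le_trans (act_disp hC p r) hCR
  let τ : Fin n → Equiv.Perm ℤ := fun i =>
    { toFun := per t N (⇑(act σ (i, true)))
      invFun := per t N (⇑(act σ (i, false)))
      left_inv := per_cancel _ _ hRN (hwin (i, false)) (hb (i, true))
        (fun r _ _ => perm_inv_apply (σ i) r)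
      right_inv := per_cancel _ _ hRN (hwin (i, true)) (hb (i, false))
        (fun r _ _ => perm_apply_inv (σ i) r) }
  have hτ : ∀ (p : Fin n × Bool) (m : ℤ), act τ p m = per t N (⇑(act σ p)) m := by
    rintro ⟨i, b⟩ m
    cases b <;> rfl
  have hτper : ∀ i, IsPer N (τ i) := by
    intro i m k
    exact per_add _ m k
  have hper : ∀ w, IsPer N (FreeGroup.lift τ w) := by
    intro w
    induction w using FreeGroup.induction_on with
    | C1 => simpa using IsPer.one N
    | of i => simpa using hτper i
    | inv_of i _ => simpa using (hτper i).inv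
    | mul a b ha hb => simpa using ha.mul hb
  have key : ∀ L : List (Fin n × Bool), ∀ m : ℤ, t - R + C * L.length ≤ m →
      m ≤ t + N + R - C * L.length →
      ((L.map (act τ)).prod) m = (L.map (act σ)).prod m := by
    intro L
    induction L with
    | nil => intro m _ _; simp
    | cons p L ih =>
      intro m h1 h2
      simp only [List.length_cons] at h1 h2
      push_cast at h1 h2
      simp only [List.map_cons, List.prod_cons, Equiv.Perm.mul_apply]
      rw [ih m (by nlinarith) (by nlinarith), hτ]
      have hd := abs_le.mp (word_disp hC L m)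
      exact per_eq _ hRN (hwin p) _ (by nlinarith [hd.1]) (by nlinarith [hd.2])
  have hker : f.ker ≤ (FreeGroup.lift τ).ker := by
    rw [← hRel]
    apply Subgroup.normalClosure_le_normal
    intro r hr
    rw [SetLike.mem_coe, MonoidHom.mem_ker]
    ext m
    obtain ⟨k, hk⟩ := exists_rep (N := N) t m
    have hmem := rep_mem t (m : ZMod N)
    have hr1 : f r = 1 := by
      have : r ∈ f.ker := by
        rw [← hRel]
        exact Subgroup.subset_normalClosure hr
      exact this
    have h3 := key (FreeGroup.toWord r) (rep t (m : ZMod N))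
      (by linarith [hRelR r hr, hmem.1]) (by linarith [hRelR r hr, hmem.2])
    rw [← lift_mk_eq, ← lift_mk_eq, FreeGroup.mk_toWord, hlift, hr1, map_one,
      Equiv.Perm.one_apply] at h3
    rw [Equiv.Perm.one_apply]
    conv_lhs => rw [hk, hper r, h3]
    exact hk.symm
  let π : G →* Equiv.Perm ℤ := f.liftOfSurjective hf ⟨FreeGroup.lift τ, hker⟩
  have hπ : ∀ w, π (f w) = FreeGroup.lift τ w := by
    intro w
    exact MonoidHom.liftOfRightInverse_comp_apply _ _ _ _ _
  refine ⟨π, ?_, ?_⟩
  · intro g
    obtain ⟨w, rfl⟩ := hf g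
    rw [hπ]
    exact hper w
  · intro p m
    have : (fun i => π (f (FreeGroup.of i))) = τ := by
      funext i
      rw [hπ, FreeGroup.lift_apply_of]
    rw [this]
    exact hτ p m

end Vale.Agent.Lib.Wobble
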