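import Vale.Agent.Lib.Wobble.Periodize

/-!
# Total displacement of a periodic permutation
-/

namespace Vale.Agent.Lib.Wobble

open Function

/-- the total displacement of `φ` over one period -/
def totalDisp (t : ℤ) (N : ℕ) [NeZero N] (φ : Equiv.Perm ℤ) : ℤ :=
  ∑ x : ZMod N, (φ (rep t x) - rep t x)

section

variable {t : ℤ} {N : ℕ} [NeZero N]

lemma IsPer.disp_rep {φ : Equiv.Perm ℤ} (h : IsPer N φ) (m : ℤ) :
    φ m - m = φ (rep t (m : ZMod N)) - rep t (m : ZMod N) := by
  obtain ⟨k, hk⟩ := exists_rep (N := N) t m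
  conv_lhs => rw [hk, h]
  ring

lemma IsPer.bar_injective {ψ : Equiv.Perm ℤ} (h : IsPer N ψ) :
    Injective (fun x : ZMod N => ((ψ (rep t x) : ℤ) : ZMod N)) := by
  intro x y hxy
  obtain ⟨k, hk⟩ := (ZMod.intCast_eq_intCast_iff_dvd_sub _ _ N).mp hxy
  have h1 : ψ (rep t y) = ψ (rep t x + k * N) := by
    rw [h]
    linarith
  have h2 := ψ.injective h1
  have h3 : ((rep t y : ℤ) : ZMod N) = ((rep t x + k * N : ℤ) : ZMod N) := by rw [h2]
  rw [cast_add_mul, rep_cast, rep_cast] at h3
  exact h3.symm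

lemma totalDisp_one : totalDisp t N 1 = 0 := by
  simp [totalDisp]

lemma totalDisp_mul {φ ψ : Equiv.Perm ℤ} (h1 : IsPer N φ) (h2 : IsPer N ψ) :
    totalDisp t N (φ * ψ) = totalDisp t N φ + totalDisp t N ψ := by
  unfold totalDisp
  have hbij : Bijective (fun x : ZMod N => ((ψ (rep t x) : ℤ) : ZMod N)) :=
    Finite.injective_iff_bijective.mp h2.bar_injective
  rw [← hbij.sum_comp (fun x : ZMod N => φ (rep t x) - rep t x), ← Finset.sum_add_distrib]
  apply Finset.sum_congr rfl
  intro x _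
  rw [Equiv.Perm.mul_apply, ← h1.disp_rep (t := t) (ψ (rep t x))]
  ring

lemma totalDisp_pow {φ : Equiv.Perm ℤ} (h : IsPer N φ) (j : ℕ) :
    totalDisp t N (φ ^ j) = j * totalDisp t N φ := by
  induction j with
  | zero => simp [totalDisp_one]
  | succ j ih =>
    rw [pow_succ, totalDisp_mul (h.pow j) h, ih]
    push_cast
    ring

/-- A periodic permutation with nonzero total displacement translates some point, after finitely
many steps, by a nonzero multiple of the period. -/
theorem exists_winding {φ : Equiv.Perm ℤ} (h : IsPer N φ) (hD : totalDisp t N φ ≠ 0) :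
    ∃ (x : ℤ) (j : ℕ) (c : ℤ), c ≠ 0 ∧ (φ ^ j) x = x + c * N := by
  by_contra hcon
  push Not at hcon
  have hfix : ∀ x : ℤ, (φ ^ (N.factorial)) x = x := by
    intro x
    obtain ⟨i, j, hij, he⟩ := Fintype.exists_ne_map_eq_of_card_lt
      (fun i : Fin (N + 1) => (((φ ^ (i : ℕ)) x : ℤ) : ZMod N)) (by simp)
    -- without loss of generality `i < j`
    have main : ∀ i j : ℕ, i < j → j ≤ N →
        (((φ ^ i) x : ℤ) : ZMod N) = (((φ ^ j) x : ℤ) : ZMod N) → (φ ^ (N.factorial)) x = x := by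
      intro i j hlt hjN he
      obtain ⟨c, hc⟩ := (ZMod.intCast_eq_intCast_iff_dvd_sub _ _ N).mp he
      have e1 : (φ ^ (j - i)) ((φ ^ i) x) = (φ ^ i) x + c * N := by
        rw [← Equiv.Perm.mul_apply, ← pow_add, Nat.sub_add_cancel hlt.le]
        linarith
      have hc0 : c = 0 := by
        by_contra hne
        exact hcon _ _ c hne e1
      rw [hc0, zero_mul, add_zero, ← Equiv.Perm.mul_apply, ← pow_add, add_comm, pow_add,
        Equiv.Perm.mul_apply] at e1
      have e2 : (φ ^ (j - i)) x = x := (φ ^ i).injective e1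
      obtain ⟨q, hq⟩ : (j - i) ∣ N.factorial :=
        Nat.dvd_factorial (Nat.sub_pos_of_lt hlt) (le_trans (Nat.sub_le j i) hjN)
      rw [hq, pow_mul]
      exact Equiv.Perm.pow_apply_eq_self_of_apply_eq_self e2 q
    rcases lt_or_gt_of_ne (fun hh => hij (Fin.ext hh) : (i : ℕ) ≠ (j : ℕ)) with hlt | hgt
    · exact main i j hlt (Nat.lt_succ_iff.mp j.2) he
    · exact main j i hgt (Nat.lt_succ_iff.mp i.2) he.symm
  have h1 : φ ^ (N.factorial) = 1 := by
    ext x
    rw [hfix, Equiv.Perm.one_apply]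
  have h2 := totalDisp_pow (t := t) h N.factorial
  rw [h1, totalDisp_one] at h2
  have h3 : ((N.factorial : ℕ) : ℤ) ≠ 0 := by exact_mod_cast N.factorial_ne_zero
  rcases mul_eq_zero.mp h2.symm with h4 | h4
  · exact h3 h4
  · exact hD h4

end

end Vale.Agent.Lib.Wobble
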